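import Vale.Agent.P062.Defs

namespace Vale.Agent.P062

/-- Maker, to move, wins within `n` further moves. -/
def W : ℕ → Finset (ℤ × ℤ) → Finset (ℤ × ℤ) → Prop
  | 0, M, _ => OwnsCopy M
  | n + 1, M, B => OwnsCopy M ∨ ∃ x, x ∉ M ∧ x ∉ B ∧
      ∀ y, y ∉ insert x M → y ∉ B → W n (insert x M) (insert y B)

theorem W.succ : ∀ {n : ℕ} {M B : Finset (ℤ × ℤ)}, W n M B → W (n + 1) M B
  | 0, _, _, h => Or.inl h
  | _ + 1, _, _, h => by
    rcases h with h | ⟨x, h1, h2, h3⟩
    · exact Or.inl h
    · exact Or.inr ⟨x, h1, h2, fun y hy hy' => W.succ (h3 y hy hy')⟩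

theorem W.mono {n m : ℕ} {M B : Finset (ℤ × ℤ)} (h : W n M B) (hnm : n ≤ m) : W m M B := by
  induction hnm with
  | refl => exact h
  | step _ ih => exact ih.succ

theorem exists_free (M B : Finset (ℤ × ℤ)) : ∃ x, x ∉ M ∧ x ∉ B := by
  obtain ⟨x, hx⟩ := Infinite.exists_notMem_finset (M ∪ B)
  exact ⟨x, by simpa using hx⟩

theorem strategy_of_W {N : ℕ} (h : W N ∅ ∅) :
    ∃ σ : Finset (ℤ × ℤ) → Finset (ℤ × ℤ) → ℤ × ℤ,
      (∀ M B, σ M B ∉ M ∧ σ M B ∉ B) ∧
      ∀ b : ℕ → ℤ × ℤ, (∀ k, b k ∉ makerCells σ b (k + 1) ∧ b k ∉ breakerCells b k) →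
        ∃ k ≤ N, OwnsCopy (makerCells σ b k) := by
  classical
  have key : ∀ M B : Finset (ℤ × ℤ), ∃ x, (x ∉ M ∧ x ∉ B) ∧ ∀ n, W (n + 1) M B →
      OwnsCopy M ∨ ∀ y, y ∉ insert x M → y ∉ B → W n (insert x M) (insert y B) := by
    intro M B
    by_cases hM : OwnsCopy M
    · obtain ⟨x, hx⟩ := exists_free M B
      exact ⟨x, hx, fun _ _ => Or.inl hM⟩
    by_cases hW : ∃ n, W (n + 1) M B
    · rcases Nat.find_spec hW with h | ⟨x, h1, h2, h3⟩
      · exact absurd h hM
      · exact ⟨x, ⟨h1, h2⟩, fun n hn => Or.inr fun y hy hy' =>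
          (h3 y hy hy').mono (Nat.find_min' hW hn)⟩
    · obtain ⟨x, hx⟩ := exists_free M B
      exact ⟨x, hx, fun n hn => absurd ⟨n, hn⟩ hW⟩
  choose σ h1 h2 using key
  refine ⟨σ, h1, fun b hb => ?_⟩
  have inv : ∀ k ≤ N, (∃ j ≤ k, OwnsCopy (makerCells σ b j)) ∨
      W (N - k) (makerCells σ b k) (breakerCells b k) := by
    intro k
    induction k with
    | zero => intro _; right; simpa [makerCells, breakerCells] using h
    | succ k ih =>
      intro hk
      rcases ih (by omega) with ⟨j, hj, hj'⟩ | hw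
      · exact Or.inl ⟨j, by omega, hj'⟩
      · have e : N - k = (N - (k + 1)) + 1 := by omega
        rw [e] at hw
        rcases h2 _ _ _ hw with hw | hw
        · exact Or.inl ⟨k, by omega, hw⟩
        · right
          have := hw (b k) (hb k).1 (hb k).2
          have e2 : breakerCells b (k + 1) = insert (b k) (breakerCells b k) := by
            simp [breakerCells, Finset.range_add_one]
          rw [e2]
          exact this
  rcases inv N le_rfl with h | h
  · exact h
  · rw [Nat.sub_self] at h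
    exact ⟨N, le_rfl, h⟩

/-- The cell with index `i`. -/
def ψ (i : ℕ) : ℤ × ℤ := (((i % 32 : ℕ) : ℤ), ((i / 32 : ℕ) : ℤ))

theorem ψ_inj {i j : ℕ} (h : ψ i = ψ j) : i = j := by
  simp only [ψ, Prod.mk.injEq, Nat.cast_inj] at h
  omega

/-- The meaning of a card with depth `d`, zone `z`, core `c`. -/
def Good (d z c : ℕ) : Prop :=
  ∀ s : ℕ, (∀ i, z.testBit i = true → (i + s) % 32 ≠ 31) → ∀ M B : Finset (ℤ × ℤ),
    (∀ i, c.testBit i = true → ψ (i + s) ∈ M) → (∀ i, z.testBit i = true → ψ (i + s) ∉ B) →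
    W d M B

inductive Tr where
  | leaf (z c p : ℕ) : Tr
  | node (l r : Tr) : Tr

noncomputable def Tr.look (t : Tr) : ℕ → (ℕ → ℕ → ℕ → Bool) → Bool :=
  Tr.rec (motive := fun _ => ℕ → (ℕ → ℕ → ℕ → Bool) → Bool) (fun z c p _ k => k z c p)
    (fun _ _ gl gr i k => Bool.rec (motive := fun _ => Bool) (gr (Nat.div i 2) k)
      (gl (Nat.div i 2) k) (Nat.beq (Nat.mod i 2) 0)) t

noncomputable def Tr.all (t : Tr) (f : ℕ → ℕ → ℕ → Bool) : Bool :=
  Tr.rec (motive := fun _ => Bool) (fun z c p => f z c p) (fun _ _ a b => and a b) t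

def Tr.Mem (z c p : ℕ) : Tr → Prop
  | .leaf z' c' p' => z = z' ∧ c = c' ∧ p = p'
  | .node l r => l.Mem z c p ∨ r.Mem z c p

theorem Tr.look_spec (t : Tr) : ∀ (i : ℕ) (k : ℕ → ℕ → ℕ → Bool), t.look i k = true →
    ∃ z c p, t.Mem z c p ∧ k z c p = true := by
  induction t with
  | leaf z c p => intro i k h; exact ⟨z, c, p, ⟨rfl, rfl, rfl⟩, h⟩
  | node l r ihl ihr =>
    intro i k h
    change Bool.rec (motive := fun _ => Bool) (r.look (Nat.div i 2) k)
      (l.look (Nat.div i 2) k) (Nat.beq (Nat.mod i 2) 0) = true at h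
    cases hb : Nat.beq (Nat.mod i 2) 0 <;> rw [hb] at h
    · obtain ⟨z, c, p, h1, h2⟩ := ihr _ _ h
      exact ⟨z, c, p, Or.inr h1, h2⟩
    · obtain ⟨z, c, p, h1, h2⟩ := ihl _ _ h
      exact ⟨z, c, p, Or.inl h1, h2⟩

theorem Tr.all_spec (t : Tr) (f : ℕ → ℕ → ℕ → Bool) (h : t.all f = true) {z c p : ℕ}
    (hm : t.Mem z c p) : f z c p = true := by
  induction t with
  | leaf z' c' p' =>
    obtain ⟨rfl, rfl, rfl⟩ := hm
    exact h
  | node l r ihl ihr =>
    change (l.all f && r.all f) = true at h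
    rw [Bool.and_eq_true] at h
    rcases hm with hm | hm
    · exact ihl h.1 hm
    · exact ihr h.2 hm

theorem Tr.all_node {l r : Tr} {f : ℕ → ℕ → ℕ → Bool} (hl : l.all f = true)
    (hr : r.all f = true) : (Tr.node l r).all f = true := by
  change (l.all f && r.all f) = true
  rw [hl, hr]; rfl

def sub (a b : ℕ) : Bool := Nat.beq (Nat.land a b) a

theorem sub_spec {a b : ℕ} (h : sub a b = true) {i : ℕ} (hi : a.testBit i = true) :
    b.testBit i = true := by
  have e : a &&& b = a := Nat.eq_of_beq_eq_true h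
  rw [← e, Nat.testBit_and, Bool.and_eq_true] at hi
  exact hi.2

noncomputable def go (T : Tr) (d z c : ℕ) (n : ℕ) : ℕ → ℕ → Bool :=
  Nat.rec (motive := fun _ => ℕ → ℕ → Bool) (fun _ acc => sub acc c)
    (fun _ ih k acc => T.look (Nat.mod k 65536) (fun zj cj pj =>
      and (Nat.ble (Nat.succ (Nat.mod pj 32)) d)
        (and (sub (Nat.shiftLeft cj (Nat.mod (Nat.div k 65536) 1024)) c)
          (and (sub (Nat.shiftLeft zj (Nat.mod (Nat.div k 65536) 1024)) z)
            (ih (Nat.div k 67108864)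
              (Nat.land acc (Nat.shiftLeft zj (Nat.mod (Nat.div k 65536) 1024)))))))) n

/-- A usable child. -/
def Kid (T : Tr) (d z c zj s : ℕ) : Prop :=
  ∃ cj pj, T.Mem zj cj pj ∧ pj % 32 < d ∧ sub (cj <<< s) c = true ∧ sub (zj <<< s) z = true

theorem go_succ {T : Tr} {d z c n k acc : ℕ} (h : go T d z c (n + 1) k acc = true) :
    ∃ zj s k', Kid T d z c zj s ∧ go T d z c n k' (acc &&& (zj <<< s)) = true := by
  obtain ⟨zj, cj, pj, h1, h2⟩ := T.look_spec _ _ h
  simp only [Bool.and_eq_true] at h2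
  obtain ⟨h2, h3, h4, h5⟩ := h2
  exact ⟨zj, _, _, ⟨cj, pj, h1, Nat.le_of_ble_eq_true h2, h3, h4⟩, h5⟩

theorem go_spec {T : Tr} {d z c : ℕ} : ∀ {n k acc : ℕ}, go T d z c n k acc = true →
    ∀ i, acc.testBit i = true → c.testBit i = false →
      ∃ zj s, Kid T d z c zj s ∧ (zj <<< s).testBit i = false
  | 0, _, _, h, i, h1, h2 => by
    have := sub_spec h h1
    rw [h2] at this
    exact absurd this (by simp)
  | n + 1, _, acc, h, i, h1, h2 => by
    obtain ⟨zj, s, k', hk, hg⟩ := go_succ h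
    cases hb : (zj <<< s).testBit i
    · exact ⟨zj, s, hk, hb⟩
    · exact go_spec hg i (by rw [Nat.testBit_and, h1, hb]; rfl) h2

def base (c : ℕ) : Bool :=
  or (Nat.beq c 103079215119) (or (Nat.beq c 12884901918) (or (Nat.beq c 64424509464)
    (or (Nat.beq c 128849018883) (or (Nat.beq c 680564734079561414487988971722172792833)
      (or (Nat.beq c 340282367158622951043061108368409100290)
        (or (Nat.beq c 340282367000166625996085689111906615298)
          (Nat.beq c 680564734000333251992171378210928328705)))))))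

theorem good_base (c a0 a1 a2 a3 a4 a5 : ℕ) (R : Matrix (Fin 2) (Fin 2) ℤ) (hR : R ∈ signedPerms)
    (h0 : c.testBit a0 = true) (h1 : c.testBit a1 = true) (h2 : c.testBit a2 = true)
    (h3 : c.testBit a3 = true) (h4 : c.testBit a4 = true) (h5 : c.testBit a5 = true)
    (h : ∀ s, (a0 + s) % 32 ≠ 31 → (a1 + s) % 32 ≠ 31 → (a2 + s) % 32 ≠ 31 →
      (a3 + s) % 32 ≠ 31 → (a4 + s) % 32 ≠ 31 → (a5 + s) % 32 ≠ 31 →
      ψ (a0 + s) + act R (1, 0) = ψ (a1 + s) ∧ ψ (a0 + s) + act R (2, 0) = ψ (a2 + s) ∧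
      ψ (a0 + s) + act R (3, 0) = ψ (a3 + s) ∧ ψ (a0 + s) + act R (3, 1) = ψ (a4 + s) ∧
      ψ (a0 + s) + act R (4, 1) = ψ (a5 + s)) : Good 0 c c := by
  intro s hs M B hM _
  obtain ⟨e1, e2, e3, e4, e5⟩ := h s (hs _ h0) (hs _ h1) (hs _ h2) (hs _ h3) (hs _ h4) (hs _ h5)
  refine ⟨ψ (a0 + s), R, hR, fun p hp => ?_⟩
  simp only [snaky, Finset.mem_insert, Finset.mem_singleton] at hp
  rcases hp with rfl | rfl | rfl | rfl | rfl | rfl
  · have : act R (0, 0) = 0 := by simp [act]
    rw [this, add_zero]; exact hM _ h0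
  · rw [e1]; exact hM _ h1
  · rw [e2]; exact hM _ h2
  · rw [e3]; exact hM _ h3
  · rw [e4]; exact hM _ h4
  · rw [e5]; exact hM _ h5

theorem base_spec {c : ℕ} (h : base c = true) : Good 0 c c := by
  simp only [base, Bool.or_eq_true, Nat.beq_eq] at h
  rcases h with rfl | rfl | rfl | rfl | rfl | rfl | rfl | rfl
  · refine good_base _ 0 1 2 3 35 36 !![1, 0; 0, 1] (by simp [signedPerms]) (by decide +kernel)
      (by decide +kernel) (by decide +kernel) (by decide +kernel) (by decide +kernel)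
      (by decide +kernel) fun s _ _ _ _ _ _ => ?_
    simp [ψ, act, Prod.ext_iff]; omega
  · refine good_base _ 4 3 2 1 33 32 !![-1, 0; 0, 1] (by simp [signedPerms]) (by decide +kernel)
      (by decide +kernel) (by decide +kernel) (by decide +kernel) (by decide +kernel)
      (by decide +kernel) fun s _ _ _ _ _ _ => ?_
    simp [ψ, act, Prod.ext_iff]; omega
  · refine good_base _ 32 33 34 35 3 4 !![1, 0; 0, -1] (by simp [signedPerms]) (by decide +kernel)
      (by decide +kernel) (by decide +kernel) (by decide +kernel) (by decide +kernel)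
      (by decide +kernel) fun s _ _ _ _ _ _ => ?_
    simp [ψ, act, Prod.ext_iff]; omega
  · refine good_base _ 36 35 34 33 1 0 !![-1, 0; 0, -1] (by simp [signedPerms]) (by decide +kernel)
      (by decide +kernel) (by decide +kernel) (by decide +kernel) (by decide +kernel)
      (by decide +kernel) fun s _ _ _ _ _ _ => ?_
    simp [ψ, act, Prod.ext_iff]; omega
  · refine good_base _ 0 32 64 96 97 129 !![0, 1; 1, 0] (by simp [signedPerms]) (by decide +kernel)
      (by decide +kernel) (by decide +kernel) (by decide +kernel) (by decide +kernel)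
      (by decide +kernel) fun s _ _ _ _ _ _ => ?_
    simp [ψ, act, Prod.ext_iff]; omega
  · refine good_base _ 1 33 65 97 96 128 !![0, -1; 1, 0] (by simp [signedPerms]) (by decide +kernel)
      (by decide +kernel) (by decide +kernel) (by decide +kernel) (by decide +kernel)
      (by decide +kernel) fun s _ _ _ _ _ _ => ?_
    simp [ψ, act, Prod.ext_iff]; omega
  · refine good_base _ 128 96 64 32 33 1 !![0, 1; -1, 0] (by simp [signedPerms]) (by decide +kernel)
      (by decide +kernel) (by decide +kernel) (by decide +kernel) (by decide +kernel)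
      (by decide +kernel) fun s _ _ _ _ _ _ => ?_
    simp [ψ, act, Prod.ext_iff]; omega
  · refine good_base _ 129 97 65 33 32 0 !![0, -1; -1, 0] (by simp [signedPerms])
      (by decide +kernel)
      (by decide +kernel) (by decide +kernel) (by decide +kernel) (by decide +kernel)
      (by decide +kernel) fun s _ _ _ _ _ _ => ?_
    simp [ψ, act, Prod.ext_iff]; omega

noncomputable def check (T : Tr) (z c p : ℕ) : Bool :=
  Bool.rec (motive := fun _ => Bool)
    (and (sub (Nat.shiftLeft 1 (Nat.mod (Nat.div p 32) 1024)) z)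
      (go T (Nat.mod p 32) z (Nat.lor c (Nat.shiftLeft 1 (Nat.mod (Nat.div p 32) 1024)))
        (Nat.succ (Nat.mod (Nat.div p 32768) 64)) (Nat.div p 2097152) z))
    (and (Nat.beq z c) (base c)) (Nat.beq (Nat.mod p 32) 0)

theorem testBit_shift {a s i : ℕ} (h : a.testBit i = true) : (a <<< s).testBit (i + s) = true := by
  rw [Nat.testBit_shiftLeft]; simp [h]

theorem step {T : Tr} {d z c m n k : ℕ}
    (ih : ∀ zj cj pj, T.Mem zj cj pj → pj % 32 < d + 1 → Good (pj % 32) zj cj)
    (hm : sub (1 <<< m) z = true) (hg : go T (d + 1) z (c ||| 1 <<< m) (n + 1) k z = true) :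
    Good (d + 1) z c := by
  classical
  intro s hs M B hM hB
  have hzm : z.testBit m = true := by
    apply sub_spec hm
    simp
  obtain ⟨x, hx1, hx2, hx3⟩ : ∃ x, x ∉ M ∧ x ∉ B ∧ ψ (m + s) ∈ insert x M := by
    by_cases h : ψ (m + s) ∈ M
    · obtain ⟨x, hx⟩ := exists_free M B
      exact ⟨x, hx.1, hx.2, Finset.mem_insert_of_mem h⟩
    · exact ⟨_, h, hB _ hzm, Finset.mem_insert_self _ _⟩
  have hc : ∀ i, (c ||| 1 <<< m).testBit i = true → ψ (i + s) ∈ insert x M := by
    intro i hi
    rw [Nat.testBit_or, Bool.or_eq_true] at hi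
    rcases hi with hi | hi
    · exact Finset.mem_insert_of_mem (hM i hi)
    · rw [Nat.one_shiftLeft, Nat.testBit_two_pow] at hi
      have : m = i := by simpa using hi
      rw [← this]; exact hx3
  refine Or.inr ⟨x, hx1, hx2, fun y hy1 hy2 => ?_⟩
  obtain ⟨zj, t, hk, hy⟩ : ∃ zj t, Kid T (d + 1) z (c ||| 1 <<< m) zj t ∧
      ∀ i, zj.testBit i = true → ψ (i + t + s) ≠ y := by
    by_cases h : ∃ i, z.testBit i = true ∧ ψ (i + s) = y
    · obtain ⟨i, hi, rfl⟩ := h
      have : (c ||| 1 <<< m).testBit i = false := by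
        cases hb : (c ||| 1 <<< m).testBit i
        · rfl
        · exact absurd (hc i hb) hy1
      obtain ⟨zj, t, hk, hb⟩ := go_spec hg i hi this
      refine ⟨zj, t, hk, fun j hj e => ?_⟩
      have e' : j + t = i := by have := ψ_inj e; omega
      have := testBit_shift (s := t) hj
      rw [e', hb] at this
      exact absurd this (by simp)
    · obtain ⟨zj, t, _, hk, _⟩ := go_succ hg
      refine ⟨zj, t, hk, fun j hj e => h ⟨j + t, ?_, e⟩⟩
      obtain ⟨_, _, _, _, _, h4⟩ := hk
      exact sub_spec h4 (testBit_shift hj)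
  obtain ⟨cj, pj, h1, h2, h3, h4⟩ := hk
  refine (ih zj cj pj h1 h2 (t + s) (fun i hi => ?_) _ _ (fun i hi => ?_)
    (fun i hi => ?_)).mono (by omega)
  · rw [← add_assoc]; exact hs _ (sub_spec h4 (testBit_shift hi))
  · rw [← add_assoc]; exact hc _ (sub_spec h3 (testBit_shift hi))
  · rw [← add_assoc, Finset.mem_insert, not_or]
    exact ⟨hy i hi, hB _ (sub_spec h4 (testBit_shift hi))⟩

theorem sound {T : Tr} (h : T.all (check T) = true) :
    ∀ d z c p, T.Mem z c p → p % 32 = d → Good d z c := by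
  intro d
  induction d using Nat.strong_induction_on with
  | _ d ih =>
    intro z c p hm hd
    have hc := T.all_spec _ h hm
    have hd' : Nat.mod p 32 = d := hd
    unfold check at hc
    rw [hd'] at hc
    cases d with
    | zero =>
      change (Nat.beq z c && base c) = true at hc
      rw [Bool.and_eq_true] at hc
      rw [Nat.eq_of_beq_eq_true hc.1]
      exact base_spec hc.2
    | succ d =>
      change (_ && _) = true at hc
      rw [Bool.and_eq_true] at hc
      exact step (fun zj cj pj h1 h2 => ih _ h2 zj cj pj h1 rfl) hc.1 hc.2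

/-- The test for the final card. -/
noncomputable def top (N z c p : ℕ) : Bool :=
  and (Nat.beq (Nat.mod p 32) N) (and (Nat.beq c 0)
    (and (Nat.beq (Nat.shiftRight z 1024) 0)
      ((List.range 32).all fun r => !z.testBit (32 * r + 31))))

theorem W_of_check {T : Tr} (h : T.all (check T) = true) {N i : ℕ}
    (ht : T.look i (top N) = true) : W N ∅ ∅ := by
  obtain ⟨z, c, p, h1, h2⟩ := T.look_spec _ _ ht
  simp only [top, Bool.and_eq_true, List.all_eq_true, List.mem_range] at h2
  obtain ⟨h2, h3, h4, h5⟩ := h2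
  have hc : c = 0 := Nat.eq_of_beq_eq_true h3
  have hz : z >>> 1024 = 0 := Nat.eq_of_beq_eq_true h4
  refine sound h N z c p h1 (Nat.eq_of_beq_eq_true h2) 0 (fun i hi e => ?_) ∅ ∅ (fun i hi => ?_)
    (fun i _ => Finset.notMem_empty _)
  · by_cases hi' : i < 1024
    · have := h5 (i / 32) (by omega)
      have e' : 32 * (i / 32) + 31 = i := by omega
      rw [e', hi] at this
      exact absurd this (by simp)
    · have : (z >>> 1024).testBit (i - 1024) = z.testBit (1024 + (i - 1024)) :=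
        Nat.testBit_shiftRight z
      have e' : 1024 + (i - 1024) = i := by omega
      rw [hz, e', hi] at this
      simp at this
  · rw [hc] at hi
    simp at hi

end Vale.Agent.P062
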