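import Mathlib

namespace Vale.Agent.P062

/-- The hexomino Snaky, as a set of cells of `ℤ²`. -/
def snaky : Finset (ℤ × ℤ) := {(0, 0), (1, 0), (2, 0), (3, 0), (3, 1), (4, 1)}

/-- The eight `2 × 2` signed permutation matrices. -/
def signedPerms : List (Matrix (Fin 2) (Fin 2) ℤ) :=
  [!![1, 0; 0, 1], !![-1, 0; 0, 1], !![1, 0; 0, -1], !![-1, 0; 0, -1],
   !![0, 1; 1, 0], !![0, -1; 1, 0], !![0, 1; -1, 0], !![0, -1; -1, 0]]

/-- The matrix `R` applied to the cell `p`. -/
def act (R : Matrix (Fin 2) (Fin 2) ℤ) (p : ℤ × ℤ) : ℤ × ℤ :=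
  (R 0 0 * p.1 + R 0 1 * p.2, R 1 0 * p.1 + R 1 1 * p.2)

/-- The set of cells `M` contains an allowed copy `t + R(S)` of Snaky. -/
def OwnsCopy (M : Finset (ℤ × ℤ)) : Prop :=
  ∃ t : ℤ × ℤ, ∃ R ∈ signedPerms, ∀ p ∈ snaky, t + act R p ∈ M

/-- The cells claimed by Breaker in his first `k` turns, when `b i` is his claim in turn `i`. -/
def breakerCells (b : ℕ → ℤ × ℤ) (k : ℕ) : Finset (ℤ × ℤ) := (Finset.range k).image b

/-- The cells claimed by Maker in her first `k` turns, when she moves first on the empty board,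
claims the cell `σ M B` in the position where she owns `M` and Breaker owns `B`, and Breaker's
claim in turn `i` is `b i`. -/
def makerCells (σ : Finset (ℤ × ℤ) → Finset (ℤ × ℤ) → ℤ × ℤ) (b : ℕ → ℤ × ℤ) :
    ℕ → Finset (ℤ × ℤ)
  | 0 => ∅
  | k + 1 => insert (σ (makerCells σ b k) (breakerCells b k)) (makerCells σ b k)

end Vale.Agent.P062
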